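import Crest.Agent.R246.Defs

/-!
# Row 246: Fubini along a direction, Gaussian normalisation (common tools)
-/

set_option autoImplicit false
set_option linter.unusedSectionVars false

open MeasureTheory Metric Filter Topology Set Module
open scoped RealInnerProductSpace ENNReal ContDiff Real

noncomputable section

namespace Crest.Agent.R246

variable {E : Type} [NormedAddCommGroup E] [InnerProductSpace ℝ E] [FiniteDimensional ℝ E]
  [MeasurableSpace E] [BorelSpace E]

theorem gk_pos (d : ℕ) (p : E) {r : ℝ} (hr : 0 < r) (y : E) : 0 < gk d p r y := by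
  have := Real.pi_pos
  unfold gk
  positivity

theorem continuous_gk (d : ℕ) (p : E) (r : ℝ) : Continuous (gk d p r) := by
  unfold gk
  fun_prop

theorem contDiff_gk (d : ℕ) (p : E) (r : ℝ) {n : WithTop ℕ∞} : ContDiff ℝ n (gk d p r) := by
  unfold gk
  exact contDiff_const.mul (Real.contDiff_exp.comp
    (((contDiff_id.sub contDiff_const).norm_sq ℝ).neg.div_const _))

theorem finrank_orth' {d : ℕ} (hE : finrank ℝ E = d + 1) {e : E} (he : ‖e‖ = 1) :
    finrank ℝ (ℝ ∙ e)ᗮ = d := by
  have h0 : e ≠ 0 := by rintro rfl; simp at he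
  have h1 := Submodule.finrank_add_finrank_orthogonal (ℝ ∙ e)
  rw [finrank_span_singleton h0] at h1
  omega

theorem inner_orth {e : E} (x : (ℝ ∙ e)ᗮ) : ⟪e, (x : E)⟫ = 0 :=
  Submodule.mem_orthogonal_singleton_iff_inner_right.1 x.2

/-- `(x, t) ↦ p + x + t e` preserves the volume -/
theorem mp_line {e : E} (he : ‖e‖ = 1) (p : E) :
    MeasurePreserving (fun z : (ℝ ∙ e)ᗮ × ℝ => p + (z.1 : E) + z.2 • e) volume volume := by
  have h1 := ((ℝ ∙ e).measurePreserving_measurableEquivProd p).symm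
  rw [InnerProductSpace.euclideanHausdorffMeasure_eq_volume] at h1
  have h2 := (LinearIsometryEquiv.toSpanUnitSingleton e he).measurePreserving
  have h3 := (h2.prod (MeasurePreserving.id (volume : Measure (ℝ ∙ e)ᗮ))).comp
    (Measure.measurePreserving_swap (μ := (volume : Measure (ℝ ∙ e)ᗮ)) (ν := (volume : Measure ℝ)))
  have h4 := h1.comp h3
  have e1 : (fun z : (ℝ ∙ e)ᗮ × ℝ => p + (z.1 : E) + z.2 • e) =
      ((ℝ ∙ e).measurableEquivProd p).symm ∘
        (Prod.map (LinearIsometryEquiv.toSpanUnitSingleton e he) id ∘ Prod.swap) := by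
    ext z
    simp only [Function.comp, Submodule.measurableEquivProd_symm_apply, vadd_eq_add,
      Prod.map_fst, Prod.map_snd, Prod.fst_swap, Prod.snd_swap, id,
      LinearIsometryEquiv.toSpanUnitSingleton_apply]
    abel
  rw [e1]
  exact h4

theorem lintegral_line {e : E} (he : ‖e‖ = 1) (p : E) {f : E → ℝ≥0∞} (hf : Measurable f) :
    ∫⁻ y, f y = ∫⁻ x : (ℝ ∙ e)ᗮ, ∫⁻ t : ℝ, f (p + (x : E) + t • e) := by
  rw [← (mp_line he p).lintegral_comp hf, Measure.volume_eq_prod, lintegral_prod]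
  exact (hf.comp (mp_line he p).measurable).aemeasurable

theorem norm_sq_line {e : E} (he : ‖e‖ = 1) (x : (ℝ ∙ e)ᗮ) (t : ℝ) :
    ‖(x : E) + t • e‖ ^ 2 = ‖x‖ ^ 2 + t ^ 2 := by
  have := inner_orth x
  rw [norm_add_sq_real, inner_smul_right, real_inner_comm, this, norm_smul, he]
  simp

theorem gk_line (d : ℕ) {e : E} (he : ‖e‖ = 1) (p : E) (r : ℝ) (x : (ℝ ∙ e)ᗮ) (t : ℝ) :
    gk d p r (p + (x : E) + t • e) = gk d 0 r x * Real.exp (-t ^ 2 / (2 * r ^ 2)) := by
  unfold gk
  rw [add_assoc, add_sub_cancel_left, norm_sq_line he, sub_zero, mul_assoc, ← Real.exp_add]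
  congr 2
  ring

theorem integrable_gk (d : ℕ) (p : E) {r : ℝ} (hr : 0 < r) : Integrable (gk d p r) := by
  have h := (GaussianFourier.integrable_cexp_neg_mul_sq_norm_add (V := E)
    (b := ((1 / (2 * r ^ 2) : ℝ) : ℂ)) (by simp only [Complex.ofReal_re]; positivity) 0 0).norm
  have h2 : Integrable fun y : E => Real.exp (-‖y‖ ^ 2 / (2 * r ^ 2)) := by
    refine h.congr (Eventually.of_forall fun y => ?_)
    simp only [Complex.norm_exp]
    congr 1
    simp [← Complex.ofReal_pow]
    ring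
  exact (h2.comp_sub_right p).const_mul _

/-- the kernel has total mass one in dimension `d` -/
theorem integral_gk (p : E) {r : ℝ} (hr : 0 < r) : ∫ y, gk (finrank ℝ E) p r y = 1 := by
  unfold gk
  rw [integral_const_mul, integral_sub_right_eq_self
    (fun y : E => Real.exp (-‖y‖ ^ 2 / (2 * r ^ 2))) p]
  have h := GaussianFourier.integral_rexp_neg_mul_sq_norm (V := E) (b := 1 / (2 * r ^ 2))
    (by positivity)
  have e1 : (fun y : E => Real.exp (-‖y‖ ^ 2 / (2 * r ^ 2))) =
      fun y : E => Real.exp (-(1 / (2 * r ^ 2)) * ‖y‖ ^ 2) := by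
    ext y
    congr 1
    ring
  have hπ := Real.pi_pos
  have e2 : π / (1 / (2 * r ^ 2)) = (√(2 * π) * r) ^ 2 := by
    rw [mul_pow, Real.sq_sqrt (by positivity)]
    field_simp
  rw [e1, h, e2, ← Real.rpow_natCast (√(2 * π) * r) 2, ← Real.rpow_mul (by positivity)]
  rw [show ((2 : ℕ) : ℝ) * ((finrank ℝ E : ℝ) / 2) = (finrank ℝ E : ℝ) by push_cast; ring,
    Real.rpow_natCast, ← mul_pow, inv_mul_cancel₀ (by positivity), one_pow]

end Crest.Agent.R246
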