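import Crest.Agent.R246.Defs

/-!
# Row 246: assembly of the blocks
-/

set_option autoImplicit false
set_option linter.unusedSectionVars false

open MeasureTheory Metric Filter Topology Set Module
open scoped RealInnerProductSpace ENNReal ContDiff Real

noncomputable section

namespace Crest.Agent.R246

structure Blocks : Prop where
  one : All fun E => StOne E
  flat : All fun E => StFlat E
  k0 : All fun E => StK0 E
  tan : All fun E => StTan E
  all : All fun E => StAll E
  reg : All fun E => StReg E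
  t1 : All fun E => StT1 E
  rig : All fun E => StRig E
  k1 : All fun E => StK1 E
  sy2 : All fun E => StSY2 E
  push : All fun E => StPush E
  crit : All fun E => StCrit E
  lim : All fun E => StLim E
  num : StNum

variable {E : Type} [NormedAddCommGroup E] [InnerProductSpace ℝ E] [FiniteDimensional ℝ E]
  [MeasurableSpace E] [BorelSpace E]

theorem flat_of_empty {S : Set E} {d : ℕ} (hE : finrank ℝ E = d + 1) (h : ¬ S.Nonempty) :
    Flat S := by
  have : Nontrivial E := Module.nontrivial_of_finrank_pos (R := ℝ) (by omega)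
  obtain ⟨e, he⟩ := exists_norm_eq E (zero_le_one (α := ℝ))
  exact ⟨e, he, fun y hy => (h ⟨y, hy⟩).elim⟩

theorem finrank_orth {d : ℕ} (hE : finrank ℝ E = d + 2) {e : E} (he : ‖e‖ = 1) :
    finrank ℝ (ℝ ∙ e)ᗮ = d + 1 := by
  have h0 : e ≠ 0 := by rintro rfl; simp at he
  have h1 := Submodule.finrank_add_finrank_orthogonal (ℝ ∙ e)
  rw [finrank_span_singleton h0] at h1
  omega

theorem reg_of_KK (B : Blocks) {d : ℕ} (hK : All fun E => KK E d) (hE : finrank ℝ E = d + 2)
    {V : Measure (E × E)} {s : E → ℝ} {Θ : ℝ} (hV : Cls (d + 1) V s Θ) (hc : VCone V)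
    (hΘ : Θ < cl d) (hne : V.fst.support.Nonempty) :
    (∃ ψ, SMC V.fst.support ψ) ∧ V.fst = ar (d + 1) V.fst.support := by
  have h2 : Θ < 2 := hΘ.trans_le (B.num.2 d)
  have h1 := B.one E (d + 1) hE (by omega) V s Θ hV
  refine B.reg E (d + 1) hE (by omega) V s Θ hV hc h2 h1 hne fun p hp hp0 => ?_
  obtain ⟨ε, hε, hA⟩ := B.all E (d + 1) hE (by omega) Θ h2
  obtain ⟨r, e, hr, he, hf⟩ := B.tan E d hE (fun e _ => hK _) V s Θ hV hc hΘ p hp hp0 ε hε
  exact hA V hV.toSV h1 p hp r e hr he hf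

theorem sy_of_KK (B : Blocks) {d : ℕ} (hd : 2 ≤ d) (hK : All fun E => KK E d) :
    SY E (d + 1) := by
  intro hE C ψ hC hF
  by_contra hlt
  push Not at hlt
  have hs := B.t1 E (d + 1) hE (by omega) C ψ hC hF
  obtain ⟨w, hw1, hw, ε, u, h1, h2, h3, h4⟩ := B.crit E (d + 1) hE (by omega) ⟨_, hs⟩
  obtain ⟨V, s, hV, hc, hth⟩ := B.lim E (d + 1) hE (by omega) w ε u h1 h2 h3 h4
  have hw2 : w < cl (d + 1) := (hw _ hs).trans_lt hlt
  have hw3 : w < cl d := hw2.trans_le (B.num.1 d)
  have hnf : ¬ Flat V.fst.support := fun h => by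
    have := B.flat E (d + 1) hE (by omega) V s w hV (hw3.trans_le (B.num.2 d)) h
    linarith
  have hne : V.fst.support.Nonempty := by
    by_contra h
    exact hnf (flat_of_empty hE h)
  obtain ⟨⟨χ, hχ⟩, har⟩ := reg_of_KK B hK hE hV hc hw3 hne
  have hT : Th (d + 1) V.fst.support = w := by rw [Th, ← har, hth]
  have := B.rig E (d + 1) hE (by omega) _ χ hχ hnf fun f hf q1 q2 => by
    by_contra hq
    push Not at hq
    obtain ⟨Λ, hΛ, hS⟩ := B.push E (d + 1) hE (by omega) _ χ hχ hnf f hf q1 q2 hq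
    have := hw Λ hS
    linarith
  linarith

theorem kk_succ (B : Blocks) {d : ℕ} (hK : All fun E => KK E d) : KK E (d + 1) := by
  intro hE V s Θ hV hc hΘ
  by_cases hne : V.fst.support.Nonempty
  swap
  · exact flat_of_empty hE hne
  obtain ⟨⟨χ, hχ⟩, har⟩ := reg_of_KK B hK hE hV hc (hΘ.trans_le (B.num.1 d)) hne
  have hT : Th (d + 1) V.fst.support ≤ Θ := by
    rw [Th, ← har]
    exact hV.upper 0 1 one_pos
  rcases Nat.lt_or_ge d 2 with hd | hd
  · interval_cases d
    · exact B.k1 E hE _ χ V hχ hV.toSV0 hc har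
        (hT.trans_lt (hΘ.trans_le (B.num.2 _)))
    · by_contra hF
      have := B.sy2 E hE _ χ hχ hF
      norm_num at this hT hΘ
      linarith
  · by_contra hF
    have := sy_of_KK B hd hK hE _ χ hχ hF
    linarith

theorem kk_all (B : Blocks) (d : ℕ) : All fun E => KK E d := by
  induction d with
  | zero => exact B.k0
  | succ d ih => exact fun E => kk_succ B ih

theorem sy_all (B : Blocks) {d : ℕ} (hd : 2 ≤ d) : SY E (d + 1) := sy_of_KK B hd (kk_all B d)

open Crest.GeometryTopology.SphereImmersion in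
theorem area_pos (m : ℕ) : 0 < unitSphereArea m := by
  unfold unitSphereArea
  have := Real.Gamma_pos_of_pos (s := ((m : ℝ) + 1) / 2) (by positivity)
  positivity

open Crest.GeometryTopology.SphereImmersion in
theorem exists_cl {m : ℕ} (hm : 2 ≤ m) : ∃ k, 1 ≤ k ∧ k < m ∧
    cl (m + 1) = cliffordVolume m k / unitSphereArea m := by
  have hfin : {x | ∃ k, 1 ≤ k ∧ k < m ∧ x = cliffordVolume m k / unitSphereArea m}.Finite := by
    refine ((finite_Iio m).image fun k => cliffordVolume m k / unitSphereArea m).subset ?_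
    rintro x ⟨k, -, h, rfl⟩
    exact ⟨k, h, rfl⟩
  have hne : {x | ∃ k, 1 ≤ k ∧ k < m ∧ x = cliffordVolume m k / unitSphereArea m}.Nonempty :=
    ⟨_, 1, le_rfl, by omega, rfl⟩
  have := hne.csInf_mem hfin
  simpa [cl, show ¬ m + 1 ≤ 2 by omega] using this

open scoped Manifold in
open Bundle Crest.GeometryTopology.SphereImmersion in
theorem final.{u} (B : Blocks) (hB : StBridge.{u}) (m : ℕ) (hm : 2 ≤ m)
    (M : Type u) [MetricSpace M] [ChartedSpace (EuclideanSpace ℝ (Fin m)) M]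
    [IsManifold 𝓘(ℝ, EuclideanSpace ℝ (Fin m)) ∞ M] [CompactSpace M] [ConnectedSpace M]
    [RiemannianBundle (fun x : M => TangentSpace 𝓘(ℝ, EuclideanSpace ℝ (Fin m)) x)]
    [IsContMDiffRiemannianBundle 𝓘(ℝ, EuclideanSpace ℝ (Fin m)) ∞ (EuclideanSpace ℝ (Fin m))
      (fun x : M => TangentSpace 𝓘(ℝ, EuclideanSpace ℝ (Fin m)) x)]
    [IsRiemannianManifold 𝓘(ℝ, EuclideanSpace ℝ (Fin m)) M] [MeasurableSpace M] [BorelSpace M]
    (F : M → EuclideanSpace ℝ (Fin (m + 2)))
    (hF : ContMDiff 𝓘(ℝ, EuclideanSpace ℝ (Fin m)) 𝓘(ℝ, EuclideanSpace ℝ (Fin (m + 2))) ∞ F)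
    (hS : ∀ x, ‖F x‖ = 1) (hiso : IsIsometricMap m (m + 2) M F)
    (hmin : IsMinimalInSphere m (m + 2) M F) (hntg : ¬ IsTotallyGeodesicInSphere m (m + 2) M F) :
    ∃ k : ℕ, 1 ≤ k ∧ k < m ∧ ENNReal.ofReal (cliffordVolume m k) ≤ (μHE[m] : Measure M) univ := by
  obtain ⟨k, hk1, hk2, hk⟩ := exists_cl hm
  have ha := area_pos m
  refine ⟨k, hk1, hk2, ?_⟩
  have hv : cliffordVolume m k = cl (m + 1) * unitSphereArea m := by
    rw [hk, div_mul_cancel₀ _ ha.ne']
  rw [hv]
  rcases lt_or_ge ((μHE[m] : Measure M) univ) (ENNReal.ofReal (2 * unitSphereArea m)) with h | h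
  · obtain ⟨C, ψ, h1, h2, h3⟩ := hB m hm M F hF hS hiso hmin hntg h
    have := sy_all B hm (by simp) C ψ h1 h2
    exact (ENNReal.ofReal_le_ofReal (mul_le_mul_of_nonneg_right this ha.le)).trans h3
  · exact (ENNReal.ofReal_le_ofReal (mul_le_mul_of_nonneg_right (B.num.2 _) ha.le)).trans h

end Crest.Agent.R246
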