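import Mathlib
import Crest.Prelude.Def_SphereImmersion

/-!
# Row 246 (Solomon–Yau): definitions and block interfaces

Everything happens in a Euclidean space `E` of dimension `d + 1` (`d = m + 1`): a minimal
hypersurface `Σ^m ⊂ S^{m+1}` is replaced by its cone `C ⊂ E`, areas by Gaussian densities `th`.
See `Blueprint.lean` for the mathematics.  The `St*` propositions are the interfaces between the
blocks; a block may take the `St*` of other blocks as hypotheses.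
-/

set_option autoImplicit false

open MeasureTheory Metric Filter Topology Set Module
open scoped RealInnerProductSpace ENNReal ContDiff Real

noncomputable section

namespace Crest.Agent.R246

section defs

variable {E : Type} [NormedAddCommGroup E] [InnerProductSpace ℝ E] [FiniteDimensional ℝ E]

/-- trace of a continuous endomorphism -/
def trc (A : E →L[ℝ] E) : ℝ := LinearMap.trace ℝ E (A : E →ₗ[ℝ] E)

/-- Hessian as an operator -/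
def hess (f : E → ℝ) (y : E) : E →L[ℝ] E := fderiv ℝ (gradient f) y

/-- Laplacian -/
def lap (f : E → ℝ) (y : E) : ℝ := trc (hess f y)

/-- `v ↦ ⟪ν, v⟫ a` -/
def rk (a ν : E) : E →L[ℝ] E := (innerSL ℝ ν).smulRight a

/-- orthogonal projection onto `ν^⊥` (for a unit vector `ν`) -/
def prj (ν : E) : E →L[ℝ] E := ContinuousLinearMap.id ℝ E - rk ν ν

/-- Gaussian kernel, normalised on `d`-planes through `p` -/
def gk (d : ℕ) (p : E) (r : ℝ) (y : E) : ℝ :=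
  (√(2 * π) * r)⁻¹ ^ d * Real.exp (-‖y - p‖ ^ 2 / (2 * r ^ 2))

/-- tangential divergence at the point `z.1` for the "normal" `z.2` -/
def divT (X : E → E) (z : E × E) : ℝ := trc (fderiv ℝ X z.1) - ⟪z.2, fderiv ℝ X z.1 z.2⟫

/-- contained in a hyperplane through `0` -/
def Flat (C : Set E) : Prop := ∃ e : E, ‖e‖ = 1 ∧ ∀ y ∈ C, ⟪e, y⟫ = 0

/-- invariance under positive dilations -/
def Hom0 {α : Type} (f : E → α) : Prop := ∀ t : ℝ, 0 < t → ∀ y, f (t • y) = f y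

/-- closed cone -/
structure CCone (C : Set E) : Prop where
  closed : IsClosed C
  zero_mem : (0 : E) ∈ C
  smul_mem : ∀ t : ℝ, 0 < t → ∀ y ∈ C, t • y ∈ C

/-- a `±1` colouring, locally constant off `C` -/
structure Col (C : Set E) (s : E → ℝ) : Prop where
  sign : ∀ y, s y = 1 ∨ s y = -1
  loc : ∀ y, y ∉ C → ∀ᶠ y' in 𝓝 y, s y' = s y

/-- near `p`, `C` is the smooth minimal hypersurface `{f = 0}` -/
structure LocAt (C : Set E) (p : E) (f : E → ℝ) (U : Set E) : Prop where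
  isOpen : IsOpen U
  mem : p ∈ U
  smooth : ContDiffOn ℝ ∞ f U
  grad_ne : ∀ y ∈ U, gradient f y ≠ 0
  zero_iff : ∀ y ∈ U, y ∈ C ↔ f y = 0
  minimal : ∀ y ∈ U, y ∈ C →
    ‖gradient f y‖ ^ 2 * lap f y = ⟪gradient f y, hess f y (gradient f y)⟫

/-- ... and the colouring is the sign of `f` -/
def LocCol (C : Set E) (s : E → ℝ) (p : E) : Prop :=
  ∃ f U, LocAt C p f U ∧ ∀ y ∈ U, y ∉ C → 0 < s y * f y

/-- smooth minimal cone with its signed distance function `ψ` -/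
structure SMC (C : Set E) (ψ : E → ℝ) : Prop extends CCone C where
  abs_eq : ∀ y, |ψ y| = infDist y C
  cont : Continuous ψ
  homog : ∀ t : ℝ, 0 < t → ∀ y, ψ (t • y) = t * ψ y
  smooth : ∃ U, IsOpen U ∧ C \ {0} ⊆ U ∧ ContDiffOn ℝ ∞ ψ U ∧ ∀ y ∈ U, ‖gradient ψ y‖ = 1
  minimal : ∀ y ∈ C, y ≠ 0 → lap ψ y = 0

/-- near `p`, `S` is a `C^{1,α}` graph over its tangent plane -/
def HGraph (S : Set E) (p : E) : Prop :=
  ∃ (e : E) (ρ α K : ℝ) (v : (ℝ ∙ e)ᗮ → ℝ) (g : (ℝ ∙ e)ᗮ → (ℝ ∙ e)ᗮ),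
    ‖e‖ = 1 ∧ 0 < ρ ∧ 0 < α ∧ α < 1 ∧ v 0 = 0 ∧ g 0 = 0 ∧
    (∀ x ∈ ball 0 ρ, HasGradientAt v (g x) x) ∧
    (∀ x ∈ ball 0 ρ, ∀ x' ∈ ball 0 ρ, ‖g x - g x'‖ ≤ K * ‖x - x'‖ ^ α) ∧
    ∀ x ∈ ball (0 : (ℝ ∙ e)ᗮ) ρ, ∀ t : ℝ, |t| < ρ → (p + (x : E) + t • e ∈ S ↔ t = v x)

/-- `S ∩ ball p r` lies in the `ε r`-neighbourhood of the hyperplane `p + e^⊥` -/
def FlatAt (S : Set E) (p : E) (r : ℝ) (e : E) (ε : ℝ) : Prop :=
  ∀ y ∈ S, dist y p < r → |⟪e, y - p⟫| ≤ ε * r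

/-- double well -/
def W (u : ℝ) : ℝ := (1 - u ^ 2) ^ 2 / 4

/-- `σ = ∫_{-1}^1 √(2W)` -/
def sig : ℝ := 2 * √2 / 3

/-- normalised Allen–Cahn energy density of a `0`-homogeneous function -/
def ed (ε : ℝ) (u : E → ℝ) (y : E) : ℝ :=
  (ε * ‖y‖ * ‖gradient u y‖ ^ 2 / 2 + W (u y) / (ε * ‖y‖)) / sig

/-- the vector `w` with `ed · w ⊗ w = ε |y| ∇u ⊗ ∇u / σ` -/
def wv (ε : ℝ) (u : E → ℝ) (y : E) : E := √(ε * ‖y‖ / (sig * ed ε u y)) • gradient u y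

/-- `0`-homogeneous extension of a solution of the Allen–Cahn equation on the sphere -/
structure Crit (ε : ℝ) (u : E → ℝ) : Prop where
  hom : Hom0 u
  smooth : ContDiffOn ℝ ∞ u {0}ᶜ
  abs_le : ∀ y, |u y| ≤ 1
  eq : ∀ y, y ≠ 0 → ε ^ 2 * ‖y‖ ^ 2 * lap u y = u y ^ 3 - u y

/-- `0`-homogeneous and smooth near `C \ {0}` -/
def Adm (C : Set E) (f : E → ℝ) : Prop :=
  Hom0 f ∧ ∃ U, IsOpen U ∧ C \ {0} ⊆ U ∧ ContDiffOn ℝ ∞ f U

/-- `|A|²` on the link -/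
def A2 (ψ : E → ℝ) (y : E) : ℝ := ‖y‖ ^ 2 * trc (hess ψ y ∘L hess ψ y)

/-- the function `q` of the boosted family (`x` unit position, `N` unit normal) -/
def qf (b : E) (s : ℝ) (x N : E) : ℝ :=
  (Real.sin s * √(1 - ‖b‖ ^ 2) + Real.cos s * ⟪b, x⟫) / (1 - ⟪b, N⟫)

/-- a perturbation `Φ '' C` of the cone with unit normal `N` along `Φ` -/
structure Pert (C : Set E) (ψ : E → ℝ) (Φ : E ≃ₜ E) (N : E → E) : Prop where
  homog : ∀ t : ℝ, 0 < t → ∀ y, Φ (t • y) = t • Φ y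
  hom0 : Hom0 N
  smooth : ∃ U, IsOpen U ∧ C \ {0} ⊆ U ∧ ContDiffOn ℝ 2 Φ U ∧ ContDiffOn ℝ 1 N U
  unit : ∀ y ∈ C, y ≠ 0 → ‖N y‖ = 1
  orth : ∀ y ∈ C, y ≠ 0 → ∀ v, ⟪gradient ψ y, v⟫ = 0 → ⟪N y, fderiv ℝ Φ y v⟫ = 0
  inj : ∀ y ∈ C, y ≠ 0 → Function.Injective (fderiv ℝ Φ y)
  pos : ∀ y ∈ C, y ≠ 0 → 0 < ⟪N y, fderiv ℝ Φ y (gradient ψ y)⟫

/-- `p DΦ + q |Φ| DN` -/
def Lop (Φ N : E → E) (p q : ℝ) (y : E) : E →L[ℝ] E :=
  p • fderiv ℝ Φ y + (q * ‖Φ y‖) • fderiv ℝ N y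

/-- Jacobian of the boosted front with respect to the area of `C` -/
def Jac (ψ : E → ℝ) (Φ N : E → E) (p q : ℝ) (y : E) : ℝ :=
  |(Lop Φ N p q y ∘L prj (gradient ψ y) + rk (N y) (gradient ψ y)).det| / p

variable [MeasurableSpace E] [BorelSpace E]

/-- Gaussian density ratio -/
def th (d : ℕ) (μ : Measure E) (p : E) (r : ℝ) : ℝ := ∫ y, gk d p r y ∂μ

/-- height excess -/
def hx (d : ℕ) (μ : Measure E) (p : E) (r : ℝ) (e : E) : ℝ :=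
  ∫ y, ⟪e, y - p⟫ ^ 2 / r ^ 2 * gk d p (2 * r) y ∂μ

/-- stationarity -/
def Stat (V : Measure (E × E)) : Prop :=
  ∀ X : E → E, ContDiff ℝ 1 X → HasCompactSupport X → ∫ z, divT X z ∂V = 0

/-- stationary oriented hypersurface varifold with Gaussian-integrable mass -/
structure SV0 (d : ℕ) (V : Measure (E × E)) : Prop where
  unit : ∀ᵐ z ∂V, ‖z.2‖ = 1
  integ : ∀ p r, 0 < r → Integrable (gk d p r) V.fst
  stat : Stat V

/-- ... with density ratios at most `Θ` -/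
structure SV (d : ℕ) (V : Measure (E × E)) (Θ : ℝ) : Prop extends SV0 d V where
  upper : ∀ p r, 0 < r → th d V.fst p r ≤ Θ

/-- density ratios at least `c` on the support -/
def Lower (d : ℕ) (μ : Measure E) (c : ℝ) : Prop := ∀ p ∈ μ.support, ∀ r, 0 < r → c ≤ th d μ p r

/-- quantisation of the density at flat balls, with phases -/
def Quant (d : ℕ) (μ : Measure E) (s : E → ℝ) : Prop :=
  ∀ η : ℝ, 0 < η → ∃ δ : ℝ, 0 < δ ∧ ∀ (p : E) (r : ℝ) (e : E), 0 < r → r ≤ δ * ‖p‖ → ‖e‖ = 1 →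
    hx d μ p r e ≤ δ → th d μ p r ≤ η ∨ 2 - η ≤ th d μ p r ∨
      (|th d μ p r - 1| ≤ η ∧ s (p + r • e) ≠ s (p - r • e))

/-- the class of limits of Allen–Cahn critical points (closed under blow-up and slicing) -/
structure Cls (d : ℕ) (V : Measure (E × E)) (s : E → ℝ) (Θ : ℝ) : Prop extends SV d V Θ where
  lower : ∃ c, 0 < c ∧ Lower d V.fst c
  col : Col V.fst.support s
  quant : Quant d V.fst s

/-- cone varifold -/
def VCone (V : Measure (E × E)) : Prop := ∀ᵐ z ∂V, ⟪z.2, z.1⟫ = 0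

/-- area measure of `C` -/
def ar (d : ℕ) (C : Set E) : Measure E := (μHE[d] : Measure E).restrict C

/-- density of the cone `C` -/
def Th (d : ℕ) (C : Set E) : ℝ := th d (ar d C) 0 1

/-- the varifold of a smooth cone -/
def vC (d : ℕ) (C : Set E) (ψ : E → ℝ) : Measure (E × E) :=
  (ar d C).map fun y => (y, gradient ψ y)

/-- normalised energy -/
def En (d : ℕ) (ε : ℝ) (u : E → ℝ) : ℝ := ∫ y, gk d 0 1 y * ed ε u y

/-- the diffuse varifold of `u` -/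
def vA (ε : ℝ) (u : E → ℝ) : Measure (E × E) :=
  ((volume : Measure E).withDensity fun y => ENNReal.ofReal (ed ε u y)).map fun y => (y, wv ε u y)

/-- second variation of area on the link (`m = d - 1`) -/
def Qf (d : ℕ) (C : Set E) (ψ f g : E → ℝ) : ℝ :=
  ∫ y, gk d 0 1 y * (‖y‖ ^ 2 * ⟪prj (gradient ψ y) (gradient f y), gradient g y⟫ -
    (A2 ψ y + ((d : ℝ) - 1)) * (f y * g y)) ∂ar d C

variable (E) in
/-- an `(m+3)`-parameter sweepout `{D b = s}` by level sets of density at most `Λ`, whose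
boundary consists of the round spheres -/
def Sweep (d : ℕ) (Λ : ℝ) : Prop :=
  ∃ (K : ℝ) (D : E → E → ℝ),
    (∀ b, Hom0 (D b)) ∧
    ContinuousOn (fun z : E × E => D z.1 z.2) (ball 0 1 ×ˢ {0}ᶜ) ∧
    (∀ b ∈ ball (0 : E) 1, ∀ y y' : E, y ≠ 0 → y' ≠ 0 →
      |D b y - D b y'| ≤ InnerProductGeometry.angle y y') ∧
    (∀ b ∈ ball (0 : E) 1, ∀ y : E, y ≠ 0 → |D b y| < π / 2) ∧
    (∀ b ∈ ball (0 : E) 1, ∀ y : E, ‖y‖ = 1 →
      |Real.sin (D b y) + ⟪b, y⟫| ≤ K * √(1 - ‖b‖ ^ 2)) ∧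
    ∀ b ∈ ball (0 : E) 1, ∀ G : ℝ → ℝ≥0∞, Measurable G →
      ∫⁻ y, ENNReal.ofReal (gk d 0 1 y / ‖y‖) * G (D b y) ≤
        ENNReal.ofReal Λ * ∫⁻ s in Ioo (-(π / 2)) (π / 2), G s

end defs

open Crest.GeometryTopology.SphereImmersion in
/-- least density of a Clifford cone of dimension `d` (`2` if there is none) -/
def cl (d : ℕ) : ℝ :=
  if d ≤ 2 then 2 else
    sInf {x | ∃ k, 1 ≤ k ∧ k < d - 1 ∧ x = cliffordVolume (d - 1) k / unitSphereArea (d - 1)}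

section statements

variable (E : Type) [NormedAddCommGroup E] [InnerProductSpace ℝ E] [FiniteDimensional ℝ E]
  [MeasurableSpace E] [BorelSpace E]

/-! ### Block C: varifold basics -/

/-- stationarity against Gaussian-dominated fields -/
def StStatG : Prop := ∀ (d : ℕ) (V : Measure (E × E)), SV0 d V → ∀ (X : E → E) (K r : ℝ),
  0 < r → ContDiff ℝ 1 X → (∀ y, ‖X y‖ ≤ K * gk d 0 r y) →
  (∀ y, ‖fderiv ℝ X y‖ ≤ K * gk d 0 r y) → ∫ z, divT X z ∂V = 0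

/-- monotonicity formula -/
def StMono : Prop := ∀ (d : ℕ), finrank ℝ E = d + 1 → ∀ V : Measure (E × E), SV0 d V →
  ∀ (p : E) (a b : ℝ), 0 < a → a ≤ b →
    th d V.fst p b - th d V.fst p a =
      ∫ r in a..b, ∫ z, ⟪z.2, z.1 - p⟫ ^ 2 / r ^ 3 * gk d p r z.1 ∂V ∧
    th d V.fst p a ≤ th d V.fst p b

/-- cones: homogeneity and the sharp upper bound -/
def StCone : Prop := ∀ (d : ℕ), finrank ℝ E = d + 1 → ∀ V : Measure (E × E), SV0 d V → VCone V →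
  (∀ (t : ℝ) (p : E) (r : ℝ), 0 < t → 0 < r → th d V.fst (t • p) (t * r) = th d V.fst p r) ∧
  (∀ t : ℝ, 0 < t → ∀ y ∈ V.fst.support, t • y ∈ V.fst.support) ∧
  ∀ (p : E) (r : ℝ), 0 < r → th d V.fst p r ≤ th d V.fst 0 1

/-- compactness along an ultrafilter -/
def StComp : Prop := ∀ (d : ℕ) (ι : Type) (𝒰 : Ultrafilter ι) (V : ι → Measure (E × E)),
  (∀ j, ∀ᵐ z ∂V j, ‖z.2‖ ≤ 1) →
  (∀ r, 0 < r → ∃ Λ : ℝ, ∀ᶠ j in (𝒰 : Filter ι),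
    Integrable (gk d 0 r) (V j).fst ∧ th d (V j).fst 0 r ≤ Λ) →
  ∃ V₀ : Measure (E × E), (∀ᵐ z ∂V₀, ‖z.2‖ ≤ 1) ∧
    (∀ p r, 0 < r → Integrable (gk d p r) V₀.fst) ∧
    ∀ (φ : E × E → ℝ) (K r : ℝ), 0 < r → Continuous φ →
      (∀ z : E × E, ‖z.2‖ ≤ 1 → |φ z| ≤ K * gk d 0 r z.1) →
      Tendsto (fun j => ∫ z, φ z ∂V j) (𝒰 : Filter ι) (𝓝 (∫ z, φ z ∂V₀))

/-- Caccioppoli: the tilt is bounded by the height -/
def StCacc : Prop := ∀ (d : ℕ), ∃ K : ℝ, ∀ V : Measure (E × E), SV0 d V →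
  ∀ (p : E) (r : ℝ) (e : E), 0 < r → ‖e‖ = 1 →
    ∫ z, (1 - ⟪z.2, e⟫ ^ 2) * gk d p (3 / 2 * r) z.1 ∂V ≤ K * hx d V.fst p r e

/-- constancy theorem on a hyperplane -/
def StConst : Prop := ∀ (d : ℕ), finrank ℝ E = d + 1 → ∀ V : Measure (E × E), SV0 d V →
  ∀ e : E, ‖e‖ = 1 → (∀ y ∈ V.fst.support, ⟪e, y⟫ = 0) →
    (∀ᵐ z ∂V, ⟪z.2, e⟫ ^ 2 = 1) ∧
    ∃ θ : ℝ, 0 ≤ θ ∧ V.fst = ENNReal.ofReal θ • ar d {y | ⟪e, y⟫ = 0} ∧
      ∀ p r, ⟪e, p⟫ = 0 → 0 < r → th d V.fst p r = θ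

/-- density at least one -/
def StOne : Prop := ∀ (d : ℕ), finrank ℝ E = d + 1 → 1 ≤ d →
  ∀ V (s : E → ℝ) (Θ : ℝ), Cls d V s Θ → Lower d V.fst 1

/-- a flat member of the class has density at most one -/
def StFlat : Prop := ∀ (d : ℕ), finrank ℝ E = d + 1 → 1 ≤ d →
  ∀ V (s : E → ℝ) (Θ : ℝ), Cls d V s Θ → Θ < 2 → Flat V.fst.support → th d V.fst 0 1 ≤ 1

/-- every cone of the class with density below `cl d` is flat -/
def KK (d : ℕ) : Prop := finrank ℝ E = d + 1 →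
  ∀ V (s : E → ℝ) (Θ : ℝ), Cls d V s Θ → VCone V → Θ < cl d → Flat V.fst.support

/-- Solomon–Yau for smooth cones -/
def SY (d : ℕ) : Prop := finrank ℝ E = d + 1 →
  ∀ (C : Set E) (ψ : E → ℝ), SMC C ψ → ¬ Flat C → cl d ≤ Th d C

def StK0 : Prop := KK E 0

/-- dimension reduction: off the vertex a low cone is flat at small scales -/
def StTan : Prop := ∀ (d : ℕ), finrank ℝ E = d + 2 →
  (∀ e : E, ‖e‖ = 1 → KK (ℝ ∙ e)ᗮ d) →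
  ∀ V (s : E → ℝ) (Θ : ℝ), Cls (d + 1) V s Θ → VCone V → Θ < cl d →
    ∀ p ∈ V.fst.support, p ≠ 0 → ∀ ε : ℝ, 0 < ε →
      ∃ (r : ℝ) (e : E), 0 < r ∧ ‖e‖ = 1 ∧ FlatAt V.fst.support p r e ε

/-! ### Block D: Allard -/

def StAll : Prop := ∀ (d : ℕ), finrank ℝ E = d + 1 → 1 ≤ d → ∀ Θ : ℝ, Θ < 2 → ∃ ε : ℝ, 0 < ε ∧
  ∀ V : Measure (E × E), SV d V Θ → Lower d V.fst 1 →
    ∀ p ∈ V.fst.support, ∀ (r : ℝ) (e : E), 0 < r → ‖e‖ = 1 →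
      FlatAt V.fst.support p r e ε → HGraph V.fst.support p

/-! ### Block F: from `C^{1,α}` to smooth -/

/-- interior regularity for the minimal surface equation (`E` is the base of the graph) -/
def StSch : Prop := ∀ (ρ α K : ℝ) (v : E → ℝ) (g : E → E), 0 < ρ → 0 < α → α < 1 → g 0 = 0 →
  (∀ x ∈ ball (0 : E) ρ, HasGradientAt v (g x) x) →
  (∀ x ∈ ball (0 : E) ρ, ∀ x' ∈ ball (0 : E) ρ, ‖g x - g x'‖ ≤ K * ‖x - x'‖ ^ α) →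
  (∀ φ : E → ℝ, ContDiff ℝ 1 φ → HasCompactSupport φ → tsupport φ ⊆ ball 0 ρ →
    ∫ x, ⟪g x, gradient φ x⟫ / √(1 + ‖g x‖ ^ 2) = 0) →
  ∃ ρ', 0 < ρ' ∧ ρ' ≤ ρ ∧ ContDiffOn ℝ ∞ v (ball 0 ρ')

/-- at a graphical point the support is smooth and the measure is the area measure -/
def StSm : Prop := ∀ (d : ℕ), finrank ℝ E = d + 1 → 1 ≤ d →
  ∀ V (s : E → ℝ) (Θ : ℝ), Cls d V s Θ → Θ < 2 → Lower d V.fst 1 →
    ∀ p ∈ V.fst.support, p ≠ 0 → HGraph V.fst.support p →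
      LocCol V.fst.support s p ∧
      ∃ U ∈ 𝓝 p, V.fst.restrict U = (ar d V.fst.support).restrict U

/-- the signed distance function -/
def StDist : Prop := ∀ (C : Set E) (s : E → ℝ), CCone C → Col C s →
  (∀ p ∈ C, p ≠ 0 → LocCol C s p) → SMC C fun y => s y * infDist y C

/-- a cone of the class which is graphical off the vertex is a smooth minimal cone -/
def StReg : Prop := ∀ (d : ℕ), finrank ℝ E = d + 1 → 1 ≤ d →
  ∀ V (s : E → ℝ) (Θ : ℝ), Cls d V s Θ → VCone V → Θ < 2 → Lower d V.fst 1 →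
    V.fst.support.Nonempty → (∀ p ∈ V.fst.support, p ≠ 0 → HGraph V.fst.support p) →
      (∃ ψ, SMC V.fst.support ψ) ∧ V.fst = ar d V.fst.support

/-! ### Block G: calculus on smooth cones, the sweepout -/

/-- area formula for embedded patches -/
def StArea : Prop := ∀ (H : Type) [NormedAddCommGroup H] [InnerProductSpace ℝ H]
  [FiniteDimensional ℝ H] [MeasurableSpace H] [BorelSpace H] (G : H → E) (O : Set H),
  IsOpen O → ContDiffOn ℝ 1 G O → InjOn G O → (∀ x ∈ O, Function.Injective (fderiv ℝ G x)) →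
  ∀ S ⊆ O, MeasurableSet S → MeasurableSet (G '' S) ∧ ∀ φ : E → ℝ≥0∞, Measurable φ →
    ∫⁻ y in G '' S, φ y ∂(μHE[finrank ℝ H] : Measure E) =
      ∫⁻ x in S, φ (G x) * ENNReal.ofReal (LinearMap.normDet (fderiv ℝ G x : H →ₗ[ℝ] E))

/-- the varifold of a smooth minimal cone -/
def StSMC : Prop := ∀ (d : ℕ), finrank ℝ E = d + 1 → 2 ≤ d → ∀ (C : Set E) (ψ : E → ℝ),
  SMC C ψ → SV d (vC d C ψ) (Th d C) ∧ VCone (vC d C ψ) ∧ (vC d C ψ).fst = ar d C ∧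
    C \ {0} ⊆ (ar d C).support ∧
    (∀ t : ℝ, 0 < t → ∀ S : Set E,
      ar d C ((fun y => t • y) '' S) = ENNReal.ofReal (t ^ d) * ar d C S) ∧
    ∀ p ∈ C, p ≠ 0 → Tendsto (th d (ar d C) p) (𝓝[>] 0) (𝓝 1)

/-- integration by parts on the link, for fields defined near the cone -/
def StIBP : Prop := ∀ (d : ℕ), finrank ℝ E = d + 1 → 2 ≤ d → ∀ (C : Set E) (ψ : E → ℝ),
  SMC C ψ → ∀ (Y : E → E) (U : Set E), IsOpen U → C \ {0} ⊆ U → ContDiffOn ℝ 1 Y U → Hom0 Y →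
    ∫ y, gk d 0 1 y * (‖y‖ * divT Y (y, gradient ψ y) - ((d : ℝ) - 1) * ⟪Y y, ‖y‖⁻¹ • y⟫)
      ∂ar d C = 0

/-- a non-flat cone is not contained in a half space -/
def StRad : Prop := ∀ (d : ℕ), finrank ℝ E = d + 1 → 2 ≤ d → ∀ (C : Set E) (ψ : E → ℝ),
  SMC C ψ → ¬ Flat C →
    (∀ e : E, ‖e‖ = 1 → ∃ y ∈ C, 0 < ⟪e, y⟫) ∧
    ∃ κ : ℝ, κ < 1 ∧ ∀ y : E, ‖y‖ = 1 → infDist y C ≤ κ

/-- the boosted family of a perturbed cone -/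
def StT1G : Prop := ∀ (d : ℕ), finrank ℝ E = d + 1 → 2 ≤ d → ∀ (C : Set E) (ψ : E → ℝ),
  SMC C ψ → ∀ (Φ : E ≃ₜ E) (N : E → E), Pert C ψ Φ N → ∀ κ Λ : ℝ, κ < 1 →
    (∀ y : E, ‖y‖ = 1 → infDist y (Φ '' C) ≤ κ) →
    (∀ b ∈ ball (0 : E) 1, ∀ s ∈ Ioo (-(π / 2)) (π / 2), ∃ M : E → ℝ≥0∞,
      (∀ y ∈ C, y ≠ 0 →
        (∀ v, ⟪gradient ψ y, v⟫ = 0 → 0 ≤ ⟪fderiv ℝ Φ y v,
          Lop Φ N (Real.cos s) (qf b s (‖Φ y‖⁻¹ • Φ y) (N y)) y v⟫) →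
        |qf b s (‖Φ y‖⁻¹ • Φ y) (N y)| * √(1 - κ ^ 2) ≤ κ * Real.cos s →
        ENNReal.ofReal (Jac ψ Φ N (Real.cos s) (qf b s (‖Φ y‖⁻¹ • Φ y) (N y)) y) ≤ M y) ∧
      ∫⁻ y, ENNReal.ofReal (gk d 0 1 (Φ y)) * M y ∂ar d C ≤ ENNReal.ofReal Λ) →
    Sweep E d Λ

def StT1 : Prop := ∀ (d : ℕ), finrank ℝ E = d + 1 → 2 ≤ d → ∀ (C : Set E) (ψ : E → ℝ),
  SMC C ψ → ¬ Flat C → Sweep E d (Th d C)

/-- tube inequality (`b = 0`) -/
def StTube : Prop := ∀ (d : ℕ), finrank ℝ E = d + 1 → 2 ≤ d → ∀ (C : Set E) (ψ : E → ℝ),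
  SMC C ψ → ¬ Flat C → ∀ G : ℝ → ℝ≥0∞, Measurable G →
    ∫⁻ y, ENNReal.ofReal (gk d 0 1 y / ‖y‖) * G (Real.arcsin (ψ y / ‖y‖)) ≤
      ENNReal.ofReal (Th d C) * ∫⁻ s in Ioo (-(π / 2)) (π / 2), G s

/-! ### Block H: rigidity -/

/-- two-point maximum principle: `∫ |A|² ≥ m |Σ|` -/
def StT2 : Prop := ∀ (d : ℕ), finrank ℝ E = d + 1 → 2 ≤ d → ∀ (C : Set E) (ψ : E → ℝ),
  SMC C ψ → ¬ Flat C → ((d : ℝ) - 1) * Th d C ≤ ∫ y, gk d 0 1 y * A2 ψ y ∂ar d C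

/-- index `m + 3` implies Clifford -/
def StRig : Prop := ∀ (d : ℕ), finrank ℝ E = d + 1 → 3 ≤ d → ∀ (C : Set E) (ψ : E → ℝ),
  SMC C ψ → ¬ Flat C →
    (∀ f, Adm C f → Qf d C ψ f (fun _ => 1) = 0 →
      (∀ a : E, Qf d C ψ f (fun y => ⟪a, ‖y‖⁻¹ • y⟫) = 0) → 0 ≤ Qf d C ψ f f) →
    cl d ≤ Th d C

/-- stationary unions of rays in the plane: an even number `< 4` of rays, balanced -/
def StK1 : Prop := finrank ℝ E = 2 → ∀ (C : Set E) (ψ : E → ℝ) (V : Measure (E × E)),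
  SMC C ψ → SV0 1 V → VCone V → V.fst = ar 1 C → Th 1 C < 2 → Flat C

def StSY2 : Prop := SY E 2

/-! ### Block P: pushing the sweepout down -/

def StPush : Prop := ∀ (d : ℕ), finrank ℝ E = d + 1 → 3 ≤ d → ∀ (C : Set E) (ψ : E → ℝ),
  SMC C ψ → ¬ Flat C → ∀ f, Adm C f → Qf d C ψ f (fun _ => 1) = 0 →
    (∀ a : E, Qf d C ψ f (fun y => ⟪a, ‖y‖⁻¹ • y⟫) = 0) → Qf d C ψ f f < 0 →
    ∃ Λ, Λ < Th d C ∧ Sweep E d Λ

/-! ### Blocks A, B: Allen–Cahn -/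

def StCrit : Prop := ∀ (d : ℕ), finrank ℝ E = d + 1 → 2 ≤ d → (∃ Λ, Sweep E d Λ) →
  ∃ w : ℝ, 1 < w ∧ (∀ Λ, Sweep E d Λ → w ≤ Λ) ∧
    ∃ (ε : ℕ → ℝ) (u : ℕ → E → ℝ), (∀ j, 0 < ε j) ∧ Tendsto ε atTop (𝓝 0) ∧
      (∀ j, Crit (ε j) (u j)) ∧ Tendsto (fun j => En d (ε j) (u j)) atTop (𝓝 w)

/-- Modica's estimate, the stress-energy identity and almost monotonicity -/
def StAC : Prop := ∀ (d : ℕ), finrank ℝ E = d + 1 → 2 ≤ d → ∃ K : ℝ, 0 ≤ K ∧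
  ∃ c : ℝ → ℝ, (∀ τ, 0 < τ → 0 < c τ) ∧ ∀ (ε : ℝ) (u : E → ℝ), 0 < ε → Crit ε u →
    (∀ y, ε ^ 2 * ‖y‖ ^ 2 * ‖gradient u y‖ ^ 2 ≤ 2 * W (u y)) ∧
    (∀ y, ‖wv ε u y‖ ≤ 1 ∧ ⟪wv ε u y, y⟫ = 0) ∧
    (∀ p r, 0 < r → Integrable (gk d p r) (vA ε u).fst ∧
      Integrable (fun y => gk d p r y / ‖y‖) (vA ε u).fst) ∧
    (∀ r, 0 < r → th d (vA ε u).fst 0 r = En d ε u) ∧
    (∀ (X : E → E) (L r : ℝ), 0 < r → ContDiff ℝ 1 X → (∀ y, ‖X y‖ ≤ L * gk d 0 r y) →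
      (∀ y, ‖fderiv ℝ X y‖ ≤ L * gk d 0 r y) →
      ∫ z, divT X z ∂vA ε u = ∫ z, (1 - ‖z.2‖ ^ 2) * ⟪X z.1, z.1⟫ / ‖z.1‖ ^ 2 ∂vA ε u) ∧
    (∀ p r, 0 < r → th d (vA ε u).fst p r ≤ K * En d ε u) ∧
    (∀ p r, 0 < r → r ≤ 2 * ‖p‖ →
      ∫ y, gk d p r y / ‖y‖ ∂(vA ε u).fst ≤ K * En d ε u / ‖p‖) ∧
    (ε ≤ 1 → ∀ τ, 0 < τ → ∀ z, z ≠ 0 → τ ≤ 1 - u z ^ 2 → c τ ≤ th d (vA ε u).fst z (ε * ‖z‖)) ∧
    ∀ (p : E) (a b : ℝ), 0 < a → a ≤ b → b ≤ ‖p‖ →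
      th d (vA ε u).fst p a + ∫ r in a..b, (∫ z, (1 - ‖z.2‖ ^ 2) * gk d p r z.1 ∂vA ε u) / r ≤
        th d (vA ε u).fst p b + K * En d ε u * (b / ‖p‖)

/-- quantisation (Hutchinson–Tonegawa) in finite form -/
def StQ : Prop := ∀ (d : ℕ), finrank ℝ E = d + 1 → 2 ≤ d → ∀ Λ η : ℝ, 0 < η → ∃ δ : ℝ, 0 < δ ∧
  ∀ (ε : ℝ) (u : E → ℝ), 0 < ε → Crit ε u → En d ε u ≤ Λ →
    ∀ (p : E) (r : ℝ) (e : E), 0 < r → r ≤ δ * ‖p‖ → ε * ‖p‖ ≤ δ * r → ‖e‖ = 1 →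
      hx d (vA ε u).fst p r e ≤ δ →
      ∫ z, (1 - ⟪z.2, e⟫ ^ 2) * gk d p (3 / 2 * r) z.1 ∂vA ε u ≤ δ →
      th d (vA ε u).fst p r ≤ η ∨ 2 - η ≤ th d (vA ε u).fst p r ∨
        (|th d (vA ε u).fst p r - 1| ≤ η ∧ u (p + r • e) * u (p - r • e) < 0)

def StLim : Prop := ∀ (d : ℕ), finrank ℝ E = d + 1 → 2 ≤ d →
  ∀ (w : ℝ) (ε : ℕ → ℝ) (u : ℕ → E → ℝ), (∀ j, 0 < ε j) → Tendsto ε atTop (𝓝 0) →
    (∀ j, Crit (ε j) (u j)) → Tendsto (fun j => En d (ε j) (u j)) atTop (𝓝 w) →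
    ∃ V s, Cls d V s w ∧ VCone V ∧ th d (V : Measure (E × E)).fst 0 1 = w

/-! ### Block J: Jordan–Brouwer, numerics, bridge -/

def StJB : Prop := 3 ≤ finrank ℝ E → ∀ C : Set E, CCone C →
  (∀ p ∈ C, p ≠ 0 → ∃ f U, LocAt C p f U) → ∃ s, Col C s ∧ ∀ p ∈ C, p ≠ 0 → LocCol C s p

end statements

/-- a statement for all Euclidean spaces -/
def All (P : ∀ (E : Type) [NormedAddCommGroup E] [InnerProductSpace ℝ E] [FiniteDimensional ℝ E]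
    [MeasurableSpace E] [BorelSpace E], Prop) : Prop :=
  ∀ (E : Type) [NormedAddCommGroup E] [InnerProductSpace ℝ E] [FiniteDimensional ℝ E]
    [MeasurableSpace E] [BorelSpace E], P E

/-- block C1 -/
structure Bas : Prop where
  statG : All fun E => StStatG E
  mono : All fun E => StMono E
  cone : All fun E => StCone E
  comp : All fun E => StComp E
  cacc : All fun E => StCacc E
  const : All fun E => StConst E

/-- block G1 -/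
structure Geo : Prop where
  area : All fun E => StArea E
  smc : All fun E => StSMC E
  ibp : All fun E => StIBP E
  rad : All fun E => StRad E

def StNum : Prop := (∀ d, cl (d + 1) ≤ cl d) ∧ ∀ d, cl d ≤ 2

open scoped Manifold in
open Bundle Crest.GeometryTopology.SphereImmersion in
/-- from the immersed manifold to a smooth minimal cone -/
def StBridge.{u} : Prop := ∀ (m : ℕ), 2 ≤ m →
  ∀ (M : Type u) [MetricSpace M] [ChartedSpace (EuclideanSpace ℝ (Fin m)) M]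
    [IsManifold 𝓘(ℝ, EuclideanSpace ℝ (Fin m)) ∞ M] [CompactSpace M] [ConnectedSpace M]
    [RiemannianBundle (fun x : M => TangentSpace 𝓘(ℝ, EuclideanSpace ℝ (Fin m)) x)]
    [IsContMDiffRiemannianBundle 𝓘(ℝ, EuclideanSpace ℝ (Fin m)) ∞ (EuclideanSpace ℝ (Fin m))
      (fun x : M => TangentSpace 𝓘(ℝ, EuclideanSpace ℝ (Fin m)) x)]
    [IsRiemannianManifold 𝓘(ℝ, EuclideanSpace ℝ (Fin m)) M] [MeasurableSpace M] [BorelSpace M]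
    (F : M → EuclideanSpace ℝ (Fin (m + 2))),
    ContMDiff 𝓘(ℝ, EuclideanSpace ℝ (Fin m)) 𝓘(ℝ, EuclideanSpace ℝ (Fin (m + 2))) ∞ F →
    (∀ x, ‖F x‖ = 1) → IsIsometricMap m (m + 2) M F → IsMinimalInSphere m (m + 2) M F →
    ¬ IsTotallyGeodesicInSphere m (m + 2) M F →
    (μHE[m] : Measure M) univ < ENNReal.ofReal (2 * unitSphereArea m) →
    ∃ (C : Set (EuclideanSpace ℝ (Fin (m + 2)))) (ψ : EuclideanSpace ℝ (Fin (m + 2)) → ℝ),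
      SMC C ψ ∧ ¬ Flat C ∧
        ENNReal.ofReal (Th (m + 1) C * unitSphereArea m) ≤ (μHE[m] : Measure M) univ

end Crest.Agent.R246
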